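import Vale.Agent.P032.S5.H360.Silent

/-!
# P032: the blocking lemma

`Irr.block180`: between two instants of a sector of `z`, at which the line perpendicular to the two
antipodal letters carries `c` and `d` respectively, a circle about a point of `U x` near an
`x`-partner of `z` cannot change its colour.
-/

open Set Filter Topology Metric

noncomputable section

namespace Vale.Agent.P032.Six

variable {k : ℕ} {U : Fin k → Set ℂ} {T : ℂ → Set (Fin k)}

namespace H180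

/-- points of the cone -/
def fc (z n : ℂ) (a : ℝ × ℝ) : ℂ := z + a.1 * ((Complex.I + a.2) * n)

theorem continuous_fc (z n : ℂ) : Continuous (fc z n) := by
  unfold fc
  fun_prop

theorem fc_zero (z n : ℂ) : fc z n (0, 0) = z := by simp [fc]

/-- the foot of a point of the cone -/
theorem foot_ev {z n : ℂ} (hn1 : ‖n‖ = 1) {s : ℝ} (hs : s ^ 2 = 1) {P : ℂ → Prop}
    (hJ : ∀ᶠ q in 𝓝[sphere z 1] (z + s * n), P q) :
    ∀ᶠ a : ℝ × ℝ in 𝓝 (0, 0), a.1 ≠ 0 → ∃ q, P q ∧ dist q z = 1 ∧ dist (fc z n a) q = 1 ∧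
      z ≠ fc z n a ∧ z + fc z n a ≠ 2 * q := by
  have tg : Tendsto (fun a : ℝ × ℝ => z + slv s n a.1 a.2) (𝓝 (0, 0)) (𝓝 (z + s * n)) := by
    have hc : Continuous fun a : ℝ × ℝ => z + slv s n a.1 a.2 :=
      continuous_const.add (continuous_slv s n)
    have := hc.tendsto (0, 0)
    simp only [slv_zero] at this
    exact this
  have hreg : ∀ᶠ a : ℝ × ℝ in 𝓝 (0, 0), a.1 ^ 2 / 4 ≤ 1 / (1 + a.2 ^ 2) := by
    have h1 : Continuous fun a : ℝ × ℝ => a.1 ^ 2 / 4 := by fun_prop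
    have h2 : Continuous fun a : ℝ × ℝ => 1 / (1 + a.2 ^ 2) :=
      continuous_const.div (by fun_prop) fun a => by positivity
    have h3 := h1.tendsto (0, 0)
    have h4 := h2.tendsto (0, 0)
    have := h3.eventually_lt h4 (by norm_num)
    exact this.mono fun a ha => ha.le
  have hfar : ∀ᶠ a : ℝ × ℝ in 𝓝 (0, 0), dist (fc z n a) z < 1 := by
    have tf := (continuous_fc z n).tendsto (0, 0)
    rw [fc_zero] at tf
    exact tf.eventually (ball_mem_nhds z one_pos)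
  have tg' : Tendsto (fun a : ℝ × ℝ => z + slv s n a.1 a.2) (𝓝 (0, 0))
      (𝓝[sphere z 1] (z + s * n)) := by
    refine tendsto_nhdsWithin_iff.2 ⟨tg, ?_⟩
    filter_upwards [hreg] with a ha
    rw [mem_sphere, dist_eq_norm, add_sub_cancel_left]
    exact norm_slv hs hn1 ha
  filter_upwards [hreg, hfar, tg'.eventually hJ] with a h1 h2 h3 ha
  have hfz : fc z n a ≠ z := by
    intro hcon
    have h4 : (a.1 : ℂ) * ((Complex.I + a.2) * n) = 0 := by
      have : fc z n a - z = 0 := by rw [hcon]; ring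
      simpa [fc] using this
    have hn0 : n ≠ 0 := by
      intro h0
      rw [h0, norm_zero] at hn1
      exact zero_ne_one hn1
    have hI : Complex.I + (a.2 : ℂ) ≠ 0 := by
      intro h0
      have := congrArg Complex.im h0
      simp at this
    rcases mul_eq_zero.1 h4 with h5 | h5
    · exact ha (by exact_mod_cast h5)
    · rcases mul_eq_zero.1 h5 with h6 | h6
      · exact hI h6
      · exact hn0 h6
  refine ⟨z + slv s n a.1 a.2, h3, ?_, ?_, Ne.symm hfz, ?_⟩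
  · rw [dist_eq_norm, add_sub_cancel_left]
    exact norm_slv hs hn1 h1
  · rw [dist_eq_norm]
    have e : fc z n a - (z + slv s n a.1 a.2) =
        (a.1 : ℂ) * ((Complex.I + a.2) * n) - slv s n a.1 a.2 := by
      simp only [fc]; ring
    rw [e]
    exact norm_slv_sub hs hn1 h1
  · intro h5
    have h6 : fc z n a - z = 2 * slv s n a.1 a.2 := by linear_combination h5
    have h7 : dist (fc z n a) z = 2 := by
      rw [dist_eq_norm, h6, norm_mul, norm_slv hs hn1 h1]; simp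
    linarith

/-- no two colours at one side -/
theorem side (h : Irr U T) {z n : ℂ} (hn1 : ‖n‖ = 1) {s : ℝ} (hs : s ^ 2 = 1) {e o d : Fin k}
    (hez : e ∈ Pal U z) (h1 : T (z + s * n) ⊆ {e, o, d})
    (he : ∀ᶠ q in 𝓝[sphere z 1] (z + s * n), e ∈ T q) :
    ∀ᶠ a : ℝ × ℝ in 𝓝 (0, 0), a.1 ≠ 0 → e ∉ T (fc z n a) ∧
      (T (fc z n a) ⊆ {o, d} → ¬ (o ∈ T (fc z n a) ∧ d ∈ T (fc z n a))) := by
  have hJ : ∀ᶠ q in 𝓝[sphere z 1] (z + s * n), ∀ᶠ q' in 𝓝[sphere z 1] q,
      T q' ⊆ {e, o, d} ∧ e ∈ T q' := by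
    refine eventually_eventually_nhdsWithin.2 ?_
    filter_upwards [mem_nhdsWithin_of_mem_nhds (h.nhd (z + s * n)), he] with q h2 h3
    exact ⟨h2.trans h1, h3⟩
  filter_upwards [foot_ev hn1 hs hJ] with a ha ha0
  obtain ⟨q, hq, hqz, hwq, hne, hne2⟩ := ha ha0
  have hqS : q ∈ sphere z 1 := hqz
  have hq0 : T q ⊆ {e, o, d} ∧ e ∈ T q := hq.self_of_nhdsWithin hqS
  -- a colour missing at the foot
  have miss : ∀ m m' : Fin k, (∀ᶠ q' in 𝓝[sphere z 1] q, T q' ⊆ {e, m, m'}) → m ∉ T q →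
      m' ∉ Pal U (fc z n a) := by
    intro m m' hmm hm
    refine h.mx.sweep_notMem (P := {m'}) hqz ?_ hwq hne hne2 rfl
    have h2 : ∀ᶠ q' in 𝓝[sphere z 1] q, m ∉ T q' := by
      refine mem_nhdsWithin_of_mem_nhds ?_
      filter_upwards [h.nhd q] with q' h3 h4
      exact hm (h3 h4)
    filter_upwards [hmm, h2, self_mem_nhdsWithin] with q' h3 h4 h5
    intro j0 hj0
    have hj1 : j0 = m' := hj0
    rw [hj1]
    by_contra hcon
    have h6 : T q' ⊆ {e} := by
      intro j hj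
      rcases h3 hj with h7 | h7 | h7
      · exact h7
      · exact absurd (h7 ▸ hj) h4
      · have h8 : j = m' := h7
        exact absurd (h.sub _ (h8 ▸ hj)) hcon
    exact h.mx.notMem' (h.mem_of_single h6) h5 hez
  refine ⟨fun hcon => ?_, fun hsub hod => ?_⟩
  · refine h.mx.sweep_notMem (P := {e}) hqz ?_ hwq hne hne2 rfl (h.sub _ hcon)
    filter_upwards [hq] with q' h3
    rintro _ rfl
    exact h.sub _ h3.2
  · by_cases ho : o ∈ T q
    · by_cases hd : d ∈ T q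
      · refine h.not_sub (x := q) (y := fc z n a) hwq ?_ ?_
        · have h2 := Set.ncard_le_ncard hq0.1 (Set.toFinite _)
          have h3 := Set.ncard_insert_le e ({o, d} : Set (Fin k))
          have h4 := Set.ncard_insert_le o ({d} : Set (Fin k))
          rw [Set.ncard_singleton] at h4
          omega
        · intro j hj
          rcases hsub hj with h5 | h5
          · exact h5 ▸ ho
          · have h6 : j = d := h5
            exact h6 ▸ hd
      · refine miss d o ?_ hd (h.sub _ hod.1)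
        filter_upwards [hq] with q' h3
        refine h3.1.trans ?_
        rintro j (rfl | rfl | rfl)
        · exact Or.inl rfl
        · exact Or.inr (Or.inr rfl)
        · exact Or.inr (Or.inl rfl)
    · refine miss o d ?_ ho (h.sub _ hod.2)
      filter_upwards [hq] with q' h3
      exact h3.1

/-- the parameter of the point of the circle about `u` on the line of slope `r` -/
def tt (σ : ℝ) (z n u : ℂ) (r : ℝ) : ℝ :=
  (1 - ‖z - u‖ ^ 2) / (dt360 ((Complex.I + r) * n) (z - u) +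
    σ * Real.sqrt (dt360 ((Complex.I + r) * n) (z - u) ^ 2 + (1 + r ^ 2) * (1 - ‖z - u‖ ^ 2)))

theorem tt_root {σ : ℝ} (hσ : σ ^ 2 = 1) {z n u : ℂ} (hn1 : ‖n‖ = 1) {r : ℝ}
    (hb : 0 < σ * dt360 ((Complex.I + r) * n) (z - u))
    (hrad : 0 ≤ dt360 ((Complex.I + r) * n) (z - u) ^ 2 + (1 + r ^ 2) * (1 - ‖z - u‖ ^ 2)) :
    dist (fc z n (tt σ z n u r, r)) u = 1 := by
  set b := dt360 ((Complex.I + r) * n) (z - u) with hbdef
  set M := ‖z - u‖ ^ 2 with hM
  set S := Real.sqrt (b ^ 2 + (1 + r ^ 2) * (1 - M)) with hS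
  have hS2 : S ^ 2 = b ^ 2 + (1 + r ^ 2) * (1 - M) := Real.sq_sqrt hrad
  have hS0 : 0 ≤ S := Real.sqrt_nonneg _
  set t := tt σ z n u r with ht
  have ht' : t = (1 - M) / (b + σ * S) := rfl
  have hD : b + σ * S ≠ 0 := by
    intro h0
    have h1 : σ * (b + σ * S) = σ * b + σ ^ 2 * S := by ring
    rw [h0, mul_zero, hσ, one_mul] at h1
    linarith
  have h1 : t * (b + σ * S) = 1 - M := by rw [ht']; exact div_mul_cancel₀ _ hD
  have h2 : (b + σ * S) ^ 2 - 2 * b * (b + σ * S) = (1 + r ^ 2) * (1 - M) := by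
    have e : (b + σ * S) ^ 2 - 2 * b * (b + σ * S) = σ ^ 2 * S ^ 2 - b ^ 2 := by ring
    rw [e, hσ, hS2]; ring
  have h3 : t * (1 + r ^ 2) = b + σ * S - 2 * b := by
    apply mul_right_cancel₀ hD
    linear_combination (1 + r ^ 2) * h1 - h2
  have hnn : n.re ^ 2 + n.im ^ 2 = 1 := by
    have h3 : ‖n‖ ^ 2 = 1 := by rw [hn1]; norm_num
    rw [Complex.sq_norm, Complex.normSq_apply] at h3
    linarith
  have hM' : M = (z - u).re ^ 2 + (z - u).im ^ 2 := by
    rw [hM, Complex.sq_norm, Complex.normSq_apply]; ring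
  have h4 : dist (fc z n (t, r)) u ^ 2 = M + 2 * t * b + t ^ 2 * (1 + r ^ 2) := by
    rw [dist_eq_norm, Complex.sq_norm, Complex.normSq_apply]
    have hre : (fc z n (t, r) - u).re = (z - u).re + t * (r * n.re - n.im) := by
      simp [fc]; ring
    have him : (fc z n (t, r) - u).im = (z - u).im + t * (r * n.im + n.re) := by
      simp [fc]; ring
    have hb' : b = (r * n.re - n.im) * (z - u).re + (r * n.im + n.re) * (z - u).im := by
      rw [hbdef, dt360]; simp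
    rw [hre, him, hM', hb']
    linear_combination (t ^ 2 * (1 + r ^ 2)) * hnn
  have h5 : dist (fc z n (t, r)) u ^ 2 = 1 := by
    rw [h4]
    linear_combination t * h3 + h1
  have h6 : (0 : ℝ) ≤ dist (fc z n (t, r)) u := dist_nonneg
  nlinarith

end H180

open H180

/-- **Blocking**, carried form. -/
theorem Irr.block180c (h : Irr U T) {z y p : ℂ} {x o r s c d : Fin k}
    (hz : ∀ j, j ∈ Pal U z) (hy : dist y z = 1) (hp : dist p z = 1) (hpx : x ∈ Pal U p)
    (hoff : dt360 (Complex.I * (y - z)) (z - p) ≠ 0)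
    (hK : ∀ j, j = x ∨ j = o ∨ j = r ∨ j = s ∨ j = c ∨ j = d)
    (h1 : T y ⊆ {r, o, d}) (h4 : T (2 * z - y) ⊆ {s, o, c})
    (hr : ∀ᶠ q in 𝓝[sphere z 1] y, r ∈ T q)
    (hs : ∀ᶠ q in 𝓝[sphere z 1] (2 * z - y), s ∈ T q)
    (hcd : ∀ᶠ w in 𝓝 z, c ∈ T w → d ∈ T w → 4 ≤ (T w).ncard)
    (hA : ∃ᶠ q in 𝓝[sphere z 1] y, (∀ᶠ q' in 𝓝[sphere z 1] q, {r, d} ⊆ Pal U q') ∧
      ∀ᶠ q' in 𝓝[sphere z 1] (2 * z - q), {s, o} ⊆ Pal U q')
    (hB : ∃ᶠ q in 𝓝[sphere z 1] y, (∀ᶠ q' in 𝓝[sphere z 1] q, {r, o} ⊆ Pal U q') ∧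
      ∀ᶠ q' in 𝓝[sphere z 1] (2 * z - q), {s, c} ⊆ Pal U q') : False := by
  set n : ℂ := y - z with hn
  have hn1 : ‖n‖ = 1 := by rw [hn, ← dist_eq_norm]; exact hy
  have hn0 : n ≠ 0 := by
    intro h0
    rw [h0, norm_zero] at hn1
    exact zero_ne_one hn1
  have hy1 : z + ((1 : ℝ) : ℂ) * n = y := by rw [hn]; push_cast; ring
  have hy2 : z + ((-1 : ℝ) : ℂ) * n = 2 * z - y := by rw [hn]; push_cast; ring
  have tf : Tendsto (fc z n) (𝓝 (0, 0)) (𝓝 z) := by
    have := (continuous_fc z n).tendsto (0, 0)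
    rwa [fc_zero] at this
  -- the good cone
  have good : ∀ᶠ a : ℝ × ℝ in 𝓝 (0, 0), a.1 ≠ 0 → x ∉ T (fc z n a) →
      ¬ (c ∈ T (fc z n a) ∧ d ∈ T (fc z n a)) ∧ ¬ (o ∈ T (fc z n a) ∧ d ∈ T (fc z n a)) ∧
      ¬ (o ∈ T (fc z n a) ∧ c ∈ T (fc z n a)) ∧ T (fc z n a) ⊆ {o, c, d} := by
    have s1 := side h hn1 (s := 1) (by norm_num) (hz r) (by rw [hy1]; exact h1)
      (by rw [hy1]; exact hr)
    have s2 := side h hn1 (s := -1) (by norm_num) (hz s) (by rw [hy2]; exact h4)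
      (by rw [hy2]; exact hs)
    filter_upwards [s1, s2, tf.eventually hcd] with a a1 a2 a4 ha hx
    have hsub : T (fc z n a) ⊆ {o, c, d} := by
      intro j hj
      rcases hK j with rfl | rfl | rfl | rfl | rfl | rfl
      · exact absurd hj hx
      · exact Or.inl rfl
      · exact absurd hj (a1 ha).1
      · exact absurd hj (a2 ha).1
      · exact Or.inr (Or.inl rfl)
      · exact Or.inr (Or.inr rfl)
    have hcd' : ¬ (c ∈ T (fc z n a) ∧ d ∈ T (fc z n a)) := by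
      rintro ⟨hc5, hd5⟩
      have h5 := a4 hc5 hd5
      have h2 := Set.ncard_le_ncard hsub (Set.toFinite _)
      have h3 := Set.ncard_insert_le o ({c, d} : Set (Fin k))
      have h4 := Set.ncard_insert_le c ({d} : Set (Fin k))
      rw [Set.ncard_singleton] at h4
      omega
    refine ⟨hcd', fun hod => ?_, fun hoc => ?_, hsub⟩
    · refine (a1 ha).2 (fun j hj => ?_) hod
      rcases hsub hj with h5 | h5 | h5
      · exact Or.inl h5
      · exact absurd ⟨h5 ▸ hj, hod.2⟩ hcd'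
      · exact Or.inr h5
    · refine (a2 ha).2 (fun j hj => ?_) hoc
      rcases hsub hj with h5 | h5 | h5
      · exact Or.inl h5
      · exact Or.inr h5
      · have h6 : j = d := h5
        exact absurd ⟨hoc.2, h6 ▸ hj⟩ hcd'
  -- the sign
  set b0 := dt360 (Complex.I * n) (z - p) with hb0
  obtain ⟨σ, hσ, hσb⟩ : ∃ σ : ℝ, σ ^ 2 = 1 ∧ σ * b0 = |b0| := by
    rcases lt_or_gt_of_ne hoff with h5 | h5
    · exact ⟨-1, by norm_num, by rw [abs_of_neg h5]; ring⟩
    · exact ⟨1, by norm_num, by rw [abs_of_pos h5]; ring⟩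
  have hab : 0 < |b0| := abs_pos.2 hoff
  have hzp : ‖z - p‖ = 1 := by rw [← dist_eq_norm, dist_comm]; exact hp
  let B : ℂ × ℝ → ℝ := fun a => dt360 ((Complex.I + a.2) * n) (z - a.1)
  let R : ℂ × ℝ → ℝ := fun a => B a ^ 2 + (1 + a.2 ^ 2) * (1 - ‖z - a.1‖ ^ 2)
  have hBc : Continuous B := by
    simp only [B, dt360]
    fun_prop
  have hRc : Continuous R := by
    simp only [R]
    fun_prop
  have hB0 : B (p, 0) = b0 := by simp [B, hb0]
  have hR0 : R (p, 0) = b0 ^ 2 := by simp [R, hB0, hzp]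
  let D : ℂ × ℝ → ℝ := fun a => B a + σ * Real.sqrt (R a)
  have hDc : Continuous D := hBc.add (continuous_const.mul (Real.continuous_sqrt.comp hRc))
  have hD0 : D (p, 0) ≠ 0 := by
    intro h0
    have h5 : σ * D (p, 0) = 0 := by rw [h0, mul_zero]
    have h6 : σ * D (p, 0) = σ * b0 + σ ^ 2 * Real.sqrt (b0 ^ 2) := by
      simp only [D, hB0, hR0]; ring
    rw [h6, hσb, hσ, one_mul] at h5
    have := Real.sqrt_nonneg (b0 ^ 2)
    linarith
  have htt : ∀ a : ℂ × ℝ, tt σ z n a.1 a.2 = (1 - ‖z - a.1‖ ^ 2) / D a := fun a => rfl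
  have hDne : ∀ a : ℂ × ℝ, 0 < σ * B a → D a ≠ 0 := by
    intro a ha h0
    have h5 : σ * D a = 0 := by rw [h0, mul_zero]
    have h6 : σ * D a = σ * B a + σ ^ 2 * Real.sqrt (R a) := by simp only [D]; ring
    rw [h6, hσ, one_mul] at h5
    have := Real.sqrt_nonneg (R a)
    linarith
  have hnum : Continuous fun a : ℂ × ℝ => 1 - ‖z - a.1‖ ^ 2 := by fun_prop
  have htc : ∀ a : ℂ × ℝ, D a ≠ 0 → ContinuousAt (fun a : ℂ × ℝ => tt σ z n a.1 a.2) a := by
    intro a ha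
    simp only [htt]
    exact hnum.continuousAt.div hDc.continuousAt ha
  have htz : ∀ r' : ℝ, tt σ z n p r' = 0 := by
    intro r'
    rw [tt, hzp]
    norm_num
  have tgood : Tendsto (fun a : ℂ × ℝ => (tt σ z n a.1 a.2, a.2)) (𝓝 (p, 0)) (𝓝 (0, 0)) := by
    have h5 := (htc (p, 0) hD0).tendsto
    have h6 : tt σ z n (p, (0 : ℝ)).1 (p, (0 : ℝ)).2 = 0 := htz 0
    simp only [htz] at h5
    exact h5.prodMk_nhds (continuous_snd.tendsto (p, (0 : ℝ)))
  have e1 : ∀ᶠ a : ℂ × ℝ in 𝓝 (p, 0), 0 < σ * B a := by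
    have h5 : Continuous fun a => σ * B a := continuous_const.mul hBc
    have h6 := h5.tendsto (p, 0)
    rw [hB0, hσb] at h6
    exact h6.eventually_const_lt hab
  have e2 : ∀ᶠ a : ℂ × ℝ in 𝓝 (p, 0), 0 < R a := by
    have h6 := hRc.tendsto (p, 0)
    rw [hR0] at h6
    exact h6.eventually_const_lt (by have := pow_pos hab 2; rwa [sq_abs] at this)
  obtain ⟨δ, hδ, hball⟩ := Metric.eventually_nhds_iff.1 (e1.and (e2.and (tgood.eventually good)))
  have hball' : ∀ u r', dist u p < δ → |r'| < δ → 0 < σ * B (u, r') ∧ 0 < R (u, r') ∧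
      (tt σ z n u r' ≠ 0 → x ∉ T (fc z n (tt σ z n u r', r')) →
      ¬ (c ∈ T (fc z n (tt σ z n u r', r')) ∧ d ∈ T (fc z n (tt σ z n u r', r'))) ∧
      ¬ (o ∈ T (fc z n (tt σ z n u r', r')) ∧ d ∈ T (fc z n (tt σ z n u r', r'))) ∧
      ¬ (o ∈ T (fc z n (tt σ z n u r', r')) ∧ c ∈ T (fc z n (tt σ z n u r', r'))) ∧
      T (fc z n (tt σ z n u r', r')) ⊆ {o, c, d}) := by
    intro u r' hu hr'
    have h5 := @hball (u, r') (by
      rw [Prod.dist_eq]
      exact max_lt hu (by rw [Real.dist_eq, sub_zero]; exact hr'))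
    exact h5
  -- slopes of the instants
  let ζ : ℂ → ℂ := fun q => (q - z) / n
  have hζc : Continuous ζ := by
    simp only [ζ]
    exact (continuous_id.sub continuous_const).div_const _
  have hζy : ζ y = 1 := by simp only [ζ]; exact div_self hn0
  have hre : ∀ᶠ q in 𝓝 y, 0 < (ζ q).re := by
    have h5 := (Complex.continuous_re.comp hζc).tendsto y
    simp only [Function.comp_apply, hζy, Complex.one_re] at h5
    exact h5.eventually_const_lt one_pos
  have hsl : ∀ᶠ q in 𝓝 y, |-(ζ q).im / (ζ q).re| < δ := by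
    have h5 : ContinuousAt (fun q => |-(ζ q).im / (ζ q).re|) y := by
      refine ContinuousAt.abs ?_
      refine ContinuousAt.div ?_ ?_ ?_
      · exact ((Complex.continuous_im.comp hζc).neg).continuousAt
      · exact (Complex.continuous_re.comp hζc).continuousAt
      · rw [hζy]; simp
    have h6 := h5.tendsto
    simp only [hζy, Complex.one_im, Complex.one_re, neg_zero, zero_div, abs_zero] at h6
    exact h6.eventually_lt_const hδ
  have line : ∀ q, 0 < (ζ q).re → ∀ t : ℝ, fc z n (t, -(ζ q).im / (ζ q).re) =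
      z + ((t / (ζ q).re : ℝ) : ℂ) * (Complex.I * (q - z)) := by
    intro q hq t
    have h5 : q - z = ζ q * n := by simp only [ζ]; rw [div_mul_cancel₀ _ hn0]
    have h6 : ζ q = (ζ q).re + (ζ q).im * Complex.I := (Complex.re_add_im _).symm
    have h7 : ((ζ q).re : ℂ) ≠ 0 := by exact_mod_cast hq.ne'
    rw [h5]
    unfold fc
    have h8 : (Complex.I + ((-(ζ q).im / (ζ q).re : ℝ) : ℂ)) * ((ζ q).re : ℂ) =
        Complex.I * ζ q := by
      conv_rhs => rw [h6]
      push_cast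
      field_simp
      ring_nf
      rw [Complex.I_sq]
      ring
    have h9 : (Complex.I + ((-(ζ q).im / (ζ q).re : ℝ) : ℂ)) = Complex.I * ζ q / (ζ q).re := by
      rw [← h8, mul_div_cancel_right₀ _ h7]
    show z + (t : ℂ) * ((Complex.I + ((-(ζ q).im / (ζ q).re : ℝ) : ℂ)) * n) = _
    rw [h9]
    push_cast
    field_simp
  -- the instants
  have inst : ∀ {m m' e : Fin k}, (∃ᶠ q in 𝓝[sphere z 1] y,
      (∀ᶠ q' in 𝓝[sphere z 1] q, {r, m} ⊆ Pal U q') ∧
      ∀ᶠ q' in 𝓝[sphere z 1] (2 * z - q), {s, m'} ⊆ Pal U q') →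
      (∀ j, j ∈ T z → j ∈ ({r, m} ∪ {s, m'} ∪ {x, e} : Set (Fin k))) →
      ∃ r', |r'| < δ ∧ ∀ᶠ u in 𝓝 p, tt σ z n u r' ≠ 0 →
        T (fc z n (tt σ z n u r', r')) ⊆ {x, e} := by
    intro m m' e hf hcov
    obtain ⟨q, ⟨hq1, hq2⟩, hqS, hq3, hq4⟩ := (hf.and_eventually
      (Filter.Eventually.and self_mem_nhdsWithin
        (mem_nhdsWithin_of_mem_nhds (hre.and hsl)))).exists
    have hqS : dist q z = 1 := hqS
    refine ⟨-(ζ q).im / (ζ q).re, hq4, ?_⟩
    have h5 := h.line_sub (z := z) (y1 := q) (y2 := 2 * z - q) (R := {x, e}) hqS (by ring)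
      hq1 hq2 hcov
    -- the parameter tends to zero
    have h6 : Tendsto (fun u => tt σ z n u (-(ζ q).im / (ζ q).re) / (ζ q).re) (𝓝 p) (𝓝 0) := by
      have h7 : D (p, -(ζ q).im / (ζ q).re) ≠ 0 :=
        hDne _ (hball' p _ (by rw [dist_self]; exact hδ) hq4).1
      have h8 := htc _ h7
      have h9 : Continuous fun u : ℂ => (u, -(ζ q).im / (ζ q).re) := by fun_prop
      have h10 : ContinuousAt (fun u => tt σ z n u (-(ζ q).im / (ζ q).re)) p :=
        ContinuousAt.comp (g := fun a : ℂ × ℝ => tt σ z n a.1 a.2)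
          (f := fun u : ℂ => (u, -(ζ q).im / (ζ q).re)) h8 h9.continuousAt
      have h11 := h10.tendsto.div_const (ζ q).re
      simp only [htz, zero_div] at h11
      exact h11
    filter_upwards [h6.eventually h5] with u hu hne
    rw [line q hq3]
    exact hu (div_ne_zero hne hq3.ne')
  obtain ⟨rA, hrA, hA'⟩ := inst (e := c) hA (fun j _ => by
    rcases hK j with rfl | rfl | rfl | rfl | rfl | rfl <;> simp)
  obtain ⟨rB, hrB, hB'⟩ := inst (e := d) hB (fun j _ => by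
    rcases hK j with rfl | rfl | rfl | rfl | rfl | rfl <;> simp)
  have hux : ∃ᶠ u in 𝓝 p, u ∈ U x := mem_closure_iff_frequently.1 hpx
  have hbp : ∀ᶠ u in 𝓝 p, dist u p < δ := ball_mem_nhds p hδ
  obtain ⟨u, hu, hud, huA, huB⟩ := (hux.and_eventually (hbp.and (hA'.and hB'))).exists
  have hzu : ‖z - u‖ ≠ 1 := by
    intro h5
    refine h.mx.notMem' hu ?_ (hz x)
    rw [dist_comm, dist_eq_norm]; exact h5
  have hzu2 : 1 - ‖z - u‖ ^ 2 ≠ 0 := by
    intro h5
    have h6 : ‖z - u‖ = 1 := by nlinarith [norm_nonneg (z - u)]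
    exact hzu h6
  have prop : ∀ r', |r'| < δ → tt σ z n u r' ≠ 0 ∧ x ∉ T (fc z n (tt σ z n u r', r')) := by
    intro r' hr'
    obtain ⟨h5, h6, -⟩ := hball' u r' hud hr'
    refine ⟨?_, fun hx => ?_⟩
    · rw [htt (u, r')]
      exact div_ne_zero hzu2 (hDne _ h5)
    · have h7 := tt_root hσ (z := z) (n := n) (u := u) hn1 h5 h6.le
      exact h.mx.notMem' hu (by rw [dist_comm]; exact h7) (h.sub _ hx)
  have hsubIcc : uIcc rA rB ⊆ Ioo (-δ) δ := by
    intro r' hr'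
    rcases mem_uIcc.1 hr' with ⟨h5, h6⟩ | ⟨h5, h6⟩
    · exact ⟨by linarith [(abs_lt.1 hrA).1], by linarith [(abs_lt.1 hrB).2]⟩
    · exact ⟨by linarith [(abs_lt.1 hrB).1], by linarith [(abs_lt.1 hrA).2]⟩
  let g : ℝ → ℂ := fun r' => fc z n (tt σ z n u r', r')
  have hgc : ContinuousOn g (uIcc rA rB) := by
    intro r' hr'
    have h5 : |r'| < δ := abs_lt.2 (hsubIcc hr')
    have h6 : D (u, r') ≠ 0 := hDne _ (hball' u r' hud h5).1
    have h8 := htc _ h6
    have h9 : Continuous fun r' : ℝ => ((u, r') : ℂ × ℝ) := by fun_prop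
    have h10 : ContinuousAt (fun r' => tt σ z n u r') r' :=
      ContinuousAt.comp (g := fun a : ℂ × ℝ => tt σ z n a.1 a.2)
        (f := fun r' : ℝ => ((u, r') : ℂ × ℝ)) h8 h9.continuousAt
    exact ((continuous_fc z n).continuousAt.comp
      (h10.prodMk continuousAt_id)).continuousWithinAt
  have hcon : IsPreconnected (g '' uIcc rA rB) := isPreconnected_uIcc.image g hgc
  have hAc : c ∈ T (g rA) := by
    obtain ⟨j, hj⟩ := h.ne (g rA)
    obtain ⟨h5, h6⟩ := prop rA hrA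
    rcases huA h5 hj with h7 | h7
    · exact absurd (h7 ▸ hj) h6
    · have h8 : j = c := h7
      exact h8 ▸ hj
  have hBd : d ∈ T (g rB) := by
    obtain ⟨j, hj⟩ := h.ne (g rB)
    obtain ⟨h5, h6⟩ := prop rB hrB
    rcases huB h5 hj with h7 | h7
    · exact absurd (h7 ▸ hj) h6
    · have h8 : j = d := h7
      exact h8 ▸ hj
  obtain ⟨w, ⟨r', hr', rfl⟩, hw1, hw2⟩ := isPreconnected_closed_iff.1 hcon {w | c ∈ T w}
    ({w | d ∈ T w} ∪ {w | o ∈ T w}) (h.closed c) ((h.closed d).union (h.closed o))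
    (by
      rintro _ ⟨r', hr', rfl⟩
      have h5 : |r'| < δ := abs_lt.2 (hsubIcc hr')
      obtain ⟨h6, h7⟩ := prop r' h5
      obtain ⟨-, -, -, h8⟩ := (hball' u r' hud h5).2.2 h6 h7
      obtain ⟨j, hj⟩ := h.ne (g r')
      rcases h8 hj with h9 | h9 | h9
      · exact Or.inr (Or.inr (h9 ▸ hj))
      · exact Or.inl (h9 ▸ hj)
      · have h10 : j = d := h9
        exact Or.inr (Or.inl (h10 ▸ hj)))
    ⟨g rA, mem_image_of_mem g left_mem_uIcc, hAc⟩
    ⟨g rB, mem_image_of_mem g right_mem_uIcc, Or.inl hBd⟩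
  have h5 : |r'| < δ := abs_lt.2 (hsubIcc hr')
  obtain ⟨h6, h7⟩ := prop r' h5
  obtain ⟨h8, h9, h10, -⟩ := (hball' u r' hud h5).2.2 h6 h7
  rcases hw2 with h11 | h11
  · exact h8 ⟨hw1, h11⟩
  · exact h10 ⟨h11, hw1⟩

/-- a palette with two colours is carried -/
theorem Irr.carry180 (h : Irr U T) {z v : ℂ} {g g' : Fin k} (hz : ∀ j, j ∈ Pal U z)
    (hv : dist v z = 1) (hT : T v = {g, g'}) :
    ∀ᶠ q' in 𝓝[sphere z 1] v, ({g, g'} : Set (Fin k)) ⊆ Pal U q' := by
  have _ := hv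
  filter_upwards [mem_nhdsWithin_of_mem_nhds (h.nhd v), self_mem_nhdsWithin] with q' h5 h6
  rw [hT] at h5
  have h7 : ∀ a b : Fin k, T q' ⊆ {a, b} → b ∈ T q' := by
    intro a b hab'
    by_contra hcon
    refine h.mx.notMem' (h.mem_of_single (i := a) fun j hj => ?_) h6 (hz a)
    rcases hab' hj with h8 | h8
    · exact h8
    · exact absurd (h8 ▸ hj) hcon
  rintro j (rfl | rfl)
  · exact h.sub _ (h7 g' j (by rw [Set.pair_comm]; exact h5))
  · exact h.sub _ (h7 g j h5)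

/-- **Blocking.** -/
theorem Irr.block180 (h : Irr U T) {z y p : ℂ} {x o r s c d : Fin k}
    (hz : ∀ j, j ∈ Pal U z) (hy : dist y z = 1) (hp : dist p z = 1) (hpx : x ∈ Pal U p)
    (hoff : dt360 (Complex.I * (y - z)) (z - p) ≠ 0)
    (hK : ∀ j, j = x ∨ j = o ∨ j = r ∨ j = s ∨ j = c ∨ j = d)
    (h1 : T y ⊆ {r, o, d}) (h4 : T (2 * z - y) ⊆ {s, o, c})
    (hr : ∀ᶠ q in 𝓝[sphere z 1] y, r ∈ T q)
    (hs : ∀ᶠ q in 𝓝[sphere z 1] (2 * z - y), s ∈ T q)
    (hcd : ∀ᶠ w in 𝓝 z, c ∈ T w → d ∈ T w → 4 ≤ (T w).ncard)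
    (hA : ∃ᶠ q in 𝓝[sphere z 1] y, T q = {r, d} ∧ T (2 * z - q) = {s, o})
    (hB : ∃ᶠ q in 𝓝[sphere z 1] y, T q = {r, o} ∧ T (2 * z - q) = {s, c}) : False := by
  have key : ∀ m m' : Fin k, (∃ᶠ q in 𝓝[sphere z 1] y, T q = {r, m} ∧ T (2 * z - q) = {s, m'}) →
      ∃ᶠ q in 𝓝[sphere z 1] y, (∀ᶠ q' in 𝓝[sphere z 1] q, {r, m} ⊆ Pal U q') ∧
      ∀ᶠ q' in 𝓝[sphere z 1] (2 * z - q), {s, m'} ⊆ Pal U q' := by
    intro m m' hf
    refine (hf.and_eventually self_mem_nhdsWithin).mono fun q hq => ?_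
    obtain ⟨⟨hq1, hq2⟩, hqS⟩ := hq
    have hqS : dist q z = 1 := hqS
    have hq' : dist (2 * z - q) z = 1 := by
      have e : 2 * z - q - z = -(q - z) := by ring
      rw [dist_eq_norm, e, norm_neg, ← dist_eq_norm]; exact hqS
    exact ⟨h.carry180 hz hqS hq1, h.carry180 hz hq' hq2⟩
  exact h.block180c hz hy hp hpx hoff hK h1 h4 hr hs hcd (key d o hA) (key o c hB)

end Vale.Agent.P032.Six
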