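import Vale.Agent.P032.Words6.H180.Block
import Vale.Agent.P032.S5.H767.RawT

/-!
# P032: the blocking lemma in angles

`Irr.block_ptc`: `Irr.block180c` over the parametrisation `pt z` of the unit circle.
-/

open Set Filter Topology Metric

noncomputable section

namespace Vale.Agent.P032.Six

open Vale.Agent.P032.S5.H767

variable {k : ℕ} {U : Fin k → Set ℂ} {T : ℂ → Set (Fin k)}

theorem dt360_ne180 {z p n : ℂ} (hn : ‖n‖ = 1) (hp : dist p z = 1) (h1 : p ≠ z + n)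
    (h2 : p ≠ z - n) : dt360 (Complex.I * n) (z - p) ≠ 0 := by
  intro h0
  have ha : n.re ^ 2 + n.im ^ 2 = 1 := by
    have h3 : ‖n‖ ^ 2 = 1 := by rw [hn]; norm_num
    rw [Complex.sq_norm, Complex.normSq_apply] at h3
    linarith
  have hm : (p - z).re ^ 2 + (p - z).im ^ 2 = 1 := by
    have h3 : ‖p - z‖ ^ 2 = 1 := by rw [← dist_eq_norm, hp]; norm_num
    rw [Complex.sq_norm, Complex.normSq_apply] at h3
    linarith
  have h3 : n.im * (p - z).re - n.re * (p - z).im = 0 := by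
    have e : dt360 (Complex.I * n) (z - p) = n.im * (p - z).re - n.re * (p - z).im := by
      simp [dt360]; ring
    rw [← e]; exact h0
  set κ : ℝ := n.re * (p - z).re + n.im * (p - z).im with hκ
  have hκ2 : κ ^ 2 = 1 := by
    have e : κ ^ 2 + (n.im * (p - z).re - n.re * (p - z).im) ^ 2 =
        (n.re ^ 2 + n.im ^ 2) * ((p - z).re ^ 2 + (p - z).im ^ 2) := by rw [hκ]; ring
    rw [h3, ha, hm] at e
    linarith
  have hre : (p - z).re = κ * n.re := by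
    rw [hκ]
    linear_combination (-(p - z).re) * ha + n.im * h3
  have him : (p - z).im = κ * n.im := by
    rw [hκ]
    linear_combination (-(p - z).im) * ha - n.re * h3
  have hκ3 : κ = 1 ∨ κ = -1 := by
    have : (κ - 1) * (κ + 1) = 0 := by linear_combination hκ2
    rcases mul_eq_zero.1 this with h4 | h4
    · left; linarith
    · right; linarith
  rcases hκ3 with h4 | h4
  · apply h1
    have e : p - z = n := by
      apply Complex.ext
      · rw [hre, h4, one_mul]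
      · rw [him, h4, one_mul]
    linear_combination e
  · apply h2
    have e : p - z = -n := by
      apply Complex.ext
      · rw [hre, h4, Complex.neg_re]; ring
      · rw [him, h4, Complex.neg_im]; ring
    linear_combination e

/-- **Blocking**, angles. -/
theorem Irr.block_ptc (h : Irr U T) {z p : ℂ} {v0 : ℝ} {x o r s c d : Fin k}
    (hz : ∀ j, j ∈ Pal U z) (hp : dist p z = 1) (hpx : x ∈ Pal U p)
    (hp1 : p ≠ pt z v0) (hp2 : p ≠ pt z (v0 + 3))
    (hK : ∀ j, j = x ∨ j = o ∨ j = r ∨ j = s ∨ j = c ∨ j = d)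
    (h1 : T (pt z v0) ⊆ {r, o, d}) (h4 : T (pt z (v0 + 3)) ⊆ {s, o, c})
    (hr : ∀ᶠ v in 𝓝 v0, r ∈ T (pt z v)) (hs : ∀ᶠ v in 𝓝 v0, s ∈ T (pt z (v + 3)))
    (hcd : ∀ᶠ w in 𝓝 z, c ∈ T w → d ∈ T w → 4 ≤ (T w).ncard)
    (hA : ∃ᶠ v in 𝓝 v0, (∀ᶠ v' in 𝓝 v, ({r, d} : Set (Fin k)) ⊆ T (pt z v')) ∧
      ∀ᶠ v' in 𝓝 v, ({s, o} : Set (Fin k)) ⊆ T (pt z (v' + 3)))
    (hB : ∃ᶠ v in 𝓝 v0, (∀ᶠ v' in 𝓝 v, ({r, o} : Set (Fin k)) ⊆ T (pt z v')) ∧
      ∀ᶠ v' in 𝓝 v, ({s, c} : Set (Fin k)) ⊆ T (pt z (v' + 3))) : False := by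
  have hn : ‖pt z v0 - z‖ = 1 := by rw [← dist_eq_norm]; exact dist_pt z v0
  have sh : ∀ (v : ℝ) (P : ℂ → Prop), (∀ᶠ v' in 𝓝 v, P (pt z (v' + 3))) →
      ∀ᶠ q in 𝓝[sphere z 1] (2 * z - pt z v), P q := by
    intro v P hP
    rw [← pt_three]
    refine ev_circle z ?_
    have hc : Tendsto (fun v' : ℝ => v' - 3) (𝓝 (v + 3)) (𝓝 v) := by
      have : Continuous fun v' : ℝ => v' - 3 := by fun_prop
      have h5 := this.tendsto (v + 3)
      have e : v + 3 - 3 = v := by ring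
      rwa [e] at h5
    filter_upwards [hc.eventually hP] with v' hv'
    rwa [sub_add_cancel] at hv'
  have tp : Tendsto (pt z) (𝓝 v0) (𝓝[sphere z 1] (pt z v0)) :=
    tendsto_nhdsWithin_iff.2 ⟨(continuous_pt z).tendsto v0,
      Eventually.of_forall fun v => dist_pt z v⟩
  have key : ∀ m m' : Fin k, (∃ᶠ v in 𝓝 v0, (∀ᶠ v' in 𝓝 v, ({r, m} : Set (Fin k)) ⊆ T (pt z v')) ∧
      ∀ᶠ v' in 𝓝 v, ({s, m'} : Set (Fin k)) ⊆ T (pt z (v' + 3))) →
      ∃ᶠ q in 𝓝[sphere z 1] (pt z v0), (∀ᶠ q' in 𝓝[sphere z 1] q, {r, m} ⊆ Pal U q') ∧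
      ∀ᶠ q' in 𝓝[sphere z 1] (2 * z - q), {s, m'} ⊆ Pal U q' := by
    intro m m' hf
    refine tp.frequently (hf.mono fun v hv => ?_)
    have e1 : ∀ᶠ q in 𝓝[sphere z 1] (pt z v), ({r, m} : Set (Fin k)) ⊆ T q :=
      ev_circle z (p := fun q => ({r, m} : Set (Fin k)) ⊆ T q) hv.1
    have e2 : ∀ᶠ q in 𝓝[sphere z 1] (2 * z - pt z v), ({s, m'} : Set (Fin k)) ⊆ T q :=
      sh v (fun q => ({s, m'} : Set (Fin k)) ⊆ T q) hv.2
    exact ⟨e1.mono fun q hq => Subset.trans hq (h.sub q),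
      e2.mono fun q hq => Subset.trans hq (h.sub q)⟩
  refine h.block180c (z := z) (y := pt z v0) (p := p) (x := x) (o := o) (r := r) (s := s)
    (c := c) (d := d) hz (dist_pt z v0) hp hpx
    (dt360_ne180 hn hp (by rw [add_sub_cancel]; exact hp1)
      (fun hc => hp2 (by rw [hc, pt_three]; ring))) hK h1 (by rw [← pt_three]; exact h4)
    (ev_circle z (p := fun q => r ∈ T q) hr) (sh v0 (fun q => s ∈ T q) hs) hcd
    (key d o hA) (key o c hB)

end Vale.Agent.P032.Six
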